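import Mathlib

/-!
P243 (B), step E2: a compact convex set all of whose widths are at least `ω` has, in every direction `n`,
a chord of length at least `ω`.

If `ω ≤ 0` take `L = 0`.  Otherwise, if `S` and `S + ω n` were disjoint, separate these compact convex sets
(`geometric_hahn_banach_compact_closed`), represent the functional by a vector
(`InnerProductSpace.toDual`), normalise it to a unit vector `θ`: `⟨x - y, θ⟩ < ω ⟨n, θ⟩ ≤ ω` for all
`x, y ∈ S`, contradicting the width hypothesis.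
-/

namespace Vale.Agent.Lib.P243.Bang

theorem exists_chord {E : Type*} [NormedAddCommGroup E] [InnerProductSpace ℝ E]
    [FiniteDimensional ℝ E] {S : Set E} (hS : Convex ℝ S) (hc : IsCompact S) (hne : S.Nonempty)
    {ω : ℝ} (hω : ∀ θ : E, ‖θ‖ = 1 → ∃ x ∈ S, ∃ y ∈ S, ω ≤ inner ℝ (x - y) θ)
    (n : E) (hn : ‖n‖ = 1) :
    ∃ p ∈ S, ∃ L : ℝ, ω ≤ L ∧ p + L • n ∈ S := by
  by_cases h0 : ω ≤ 0
  · obtain ⟨p, hp⟩ := hne
    exact ⟨p, hp, 0, h0, by simpa using hp⟩
  push Not at h0
  by_contra hcon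
  push Not at hcon
  have hTconv : Convex ℝ ((fun x => ω • n + x) '' S) := hS.translate (ω • n)
  have hTclosed : IsClosed ((fun x => ω • n + x) '' S) :=
    (hc.image (by fun_prop)).isClosed
  have hdisj : Disjoint S ((fun x => ω • n + x) '' S) := by
    rw [Set.disjoint_left]
    rintro a ha ⟨p, hp, rfl⟩
    have := hcon p hp ω le_rfl
    rw [add_comm] at this
    exact this ha
  obtain ⟨f, u, v, hfu, huv, hfv⟩ :=
    geometric_hahn_banach_compact_closed hS hc hTconv hTclosed hdisj
  have key : ∀ x ∈ S, ∀ y ∈ S, f (x - y) < ω * f n := by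
    intro x hx y hy
    have h1 := hfu x hx
    have h2 := hfv (ω • n + y) ⟨y, hy, rfl⟩
    simp only [map_add, map_smul, smul_eq_mul, map_sub] at h2 ⊢
    linarith
  obtain ⟨p, hp⟩ := hne
  have hfn : 0 < f n := by
    have := key p hp p hp
    simp only [sub_self, map_zero] at this
    exact (pos_iff_pos_of_mul_pos this).1 h0
  set w : E := (InnerProductSpace.toDual ℝ E).symm f with hw
  have hfw : ∀ x, f x = inner ℝ w x := by
    intro x
    rw [hw, InnerProductSpace.toDual_symm_apply]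
  have hw0 : w ≠ 0 := by
    intro h
    have := hfw n
    rw [h, inner_zero_left] at this
    linarith
  have hwn : 0 < ‖w‖ := norm_pos_iff.2 hw0
  obtain ⟨x, hx, y, hy, hxy⟩ := hω (‖w‖⁻¹ • w) (by
    rw [norm_smul, norm_inv, norm_norm, inv_mul_cancel₀ hwn.ne'])
  have h1 := key x hx y hy
  rw [inner_smul_right, real_inner_comm, ← hfw] at hxy
  have h2 : f n ≤ ‖w‖ := by
    rw [hfw]
    calc inner ℝ w n ≤ ‖w‖ * ‖n‖ := real_inner_le_norm _ _
      _ = ‖w‖ := by rw [hn, mul_one]
  have h3 : ω * ‖w‖ ≤ f (x - y) := by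
    have := mul_le_mul_of_nonneg_right hxy hwn.le
    rwa [mul_comm (‖w‖⁻¹), mul_assoc, inv_mul_cancel₀ hwn.ne', mul_one] at this
  have h4 : ω * f n ≤ ω * ‖w‖ := mul_le_mul_of_nonneg_left h2 h0.le
  linarith

end Vale.Agent.Lib.P243.Bang
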