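import Mathlib
import Vale.Agent.Lib.P243.Bang.Chord

/-!
P243 (B), step E3: if `2 ∑ δ_i ≤ ω ≤` all widths of `S`, some translate of the set of all sign
combinations `∑ ± δ_i n_i` lies in `S`.

`shrink`: `S₁ = {x | x + δ n ∈ S ∧ x - δ n ∈ S}` is compact, convex, nonempty with all widths `≥ ω - 2δ`:
take a chord `p, q = p + L n ∈ S`, `L ≥ ω` (`exists_chord`), `λ = 2δ/L ≤ 1` (if `δ > 0`) and
`h x = (1-λ) x + λ (p+q)/2`; then `h x + δ n = (1-λ) x + λ q ∈ S`, `h x - δ n = (1-λ) x + λ p ∈ S`, and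
`⟨h x - h y, θ⟩ = (1-λ) ⟨x - y, θ⟩ ≥ (1 - 2δ/L) ω ≥ ω - 2δ`.
`exists_center`: induction on `m`, generalising `S` and `ω`.
-/

namespace Vale.Agent.Lib.P243.Bang

variable {E : Type*} [NormedAddCommGroup E] [InnerProductSpace ℝ E] [FiniteDimensional ℝ E]

theorem shrink {S : Set E} (hS : Convex ℝ S) (hc : IsCompact S) (hne : S.Nonempty)
    {ω : ℝ} (hω : ∀ θ : E, ‖θ‖ = 1 → ∃ x ∈ S, ∃ y ∈ S, ω ≤ inner ℝ (x - y) θ)
    (n : E) (hn : ‖n‖ = 1) {δ : ℝ} (hδ : 0 ≤ δ) (hδω : 2 * δ ≤ ω) :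
    Convex ℝ {x | x + δ • n ∈ S ∧ x - δ • n ∈ S} ∧ IsCompact {x | x + δ • n ∈ S ∧ x - δ • n ∈ S} ∧
      {x | x + δ • n ∈ S ∧ x - δ • n ∈ S}.Nonempty ∧
      ∀ θ : E, ‖θ‖ = 1 → ∃ x ∈ {x | x + δ • n ∈ S ∧ x - δ • n ∈ S},
        ∃ y ∈ {x | x + δ • n ∈ S ∧ x - δ • n ∈ S}, ω - 2 * δ ≤ inner ℝ (x - y) θ := by
  obtain ⟨p, hp, L, hL, hq⟩ := exists_chord hS hc hne hω n hn
  -- the homothety ratio
  obtain ⟨l, hl0, hl1, hlL⟩ : ∃ l : ℝ, 0 ≤ l ∧ l ≤ 1 ∧ l * L = 2 * δ := by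
    rcases hδ.eq_or_lt with h0 | hpos
    · exact ⟨0, le_refl _, zero_le_one, by rw [← h0]; ring⟩
    · have hLpos : 0 < L := by linarith
      refine ⟨2 * δ / L, by positivity, ?_, by field_simp⟩
      rw [div_le_one hLpos]
      linarith
  -- the homothety maps `S` into the shrunk set
  have hmap : ∀ x ∈ S, (1 - l) • x + l • (p + (L / 2) • n) ∈
      {x | x + δ • n ∈ S ∧ x - δ • n ∈ S} := by
    intro x hx
    have hδ' : δ = l * L / 2 := by linarith
    constructor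
    · have : (1 - l) • x + l • (p + (L / 2) • n) + δ • n = (1 - l) • x + l • (p + L • n) := by
        rw [hδ']
        module
      rw [this]
      exact hS hx hq (by linarith) hl0 (by ring)
    · have : (1 - l) • x + l • (p + (L / 2) • n) - δ • n = (1 - l) • x + l • p := by
        rw [hδ']
        module
      rw [this]
      exact hS hx hp (by linarith) hl0 (by ring)
  refine ⟨?_, ?_, ?_, ?_⟩
  · intro x hx y hy a b ha hb hab
    constructor
    · have : a • x + b • y + δ • n = a • (x + δ • n) + b • (y + δ • n) := by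
        have hb' : b = 1 - a := by linarith
        rw [hb']
        module
      rw [this]
      exact hS hx.1 hy.1 ha hb hab
    · have : a • x + b • y - δ • n = a • (x - δ • n) + b • (y - δ • n) := by
        have hb' : b = 1 - a := by linarith
        rw [hb']
        module
      rw [this]
      exact hS hx.2 hy.2 ha hb hab
  · have hcl : IsClosed {x | x + δ • n ∈ S ∧ x - δ • n ∈ S} := by
      have h1 : IsClosed ((fun x : E => x + δ • n) ⁻¹' S) :=
        hc.isClosed.preimage (by fun_prop)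
      have h2 : IsClosed ((fun x : E => x - δ • n) ⁻¹' S) :=
        hc.isClosed.preimage (by fun_prop)
      exact h1.inter h2
    have hcomp : IsCompact ((fun x : E => x - δ • n) '' S) :=
      hc.image (by fun_prop)
    refine hcomp.of_isClosed_subset hcl ?_
    intro x hx
    exact ⟨x + δ • n, hx.1, by simp⟩
  · obtain ⟨x, hx⟩ := hne
    exact ⟨_, hmap x hx⟩
  · intro θ hθ
    obtain ⟨x, hx, y, hy, hxy⟩ := hω θ hθ
    refine ⟨_, hmap x hx, _, hmap y hy, ?_⟩
    have : (1 - l) • x + l • (p + (L / 2) • n) - ((1 - l) • y + l • (p + (L / 2) • n))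
        = (1 - l) • (x - y) := by
      module
    rw [this, inner_smul_left]
    simp only [conj_trivial]
    have h1 : (1 - l) * ω ≤ (1 - l) * inner ℝ (x - y) θ :=
      mul_le_mul_of_nonneg_left hxy (by linarith)
    have h2 : l * ω ≤ l * L := mul_le_mul_of_nonneg_left hL hl0
    nlinarith

theorem exists_center (m : ℕ) {S : Set E} (hS : Convex ℝ S) (hc : IsCompact S) (hne : S.Nonempty)
    {ω : ℝ} (hω : ∀ θ : E, ‖θ‖ = 1 → ∃ x ∈ S, ∃ y ∈ S, ω ≤ inner ℝ (x - y) θ)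
    (n : Fin m → E) (hn : ∀ i, ‖n i‖ = 1) (δ : Fin m → ℝ) (hδ : ∀ i, 0 ≤ δ i)
    (hsum : 2 * ∑ i, δ i ≤ ω) :
    ∃ x0 : E, ∀ ε : Fin m → ℝ, (∀ i, ε i = 1 ∨ ε i = -1) →
      x0 + ∑ i, (ε i * δ i) • n i ∈ S := by
  induction m generalizing S ω with
  | zero =>
    obtain ⟨x, hx⟩ := hne
    exact ⟨x, fun ε _ => by simpa using hx⟩
  | succ m ih =>
    rw [Fin.sum_univ_succ] at hsum
    have hrest : 0 ≤ ∑ i : Fin m, δ i.succ := Finset.sum_nonneg fun i _ => hδ _
    obtain ⟨h1, h2, h3, h4⟩ := shrink hS hc hne hω (n 0) (hn 0) (hδ 0) (by linarith)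
    obtain ⟨x0, hx0⟩ := ih h1 h2 h3 h4 (fun i => n i.succ) (fun i => hn _) (fun i => δ i.succ)
      (fun i => hδ _) (by linarith)
    refine ⟨x0, fun ε hε => ?_⟩
    have hy := hx0 (fun i => ε i.succ) (fun i => hε _)
    rw [Fin.sum_univ_succ]
    rcases hε 0 with h | h
    · have : x0 + ((ε 0 * δ 0) • n 0 + ∑ i : Fin m, (ε i.succ * δ i.succ) • n i.succ)
          = x0 + ∑ i : Fin m, (ε i.succ * δ i.succ) • n i.succ + δ 0 • n 0 := by
        rw [h]
        module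
      rw [this]
      exact hy.1
    · have : x0 + ((ε 0 * δ 0) • n 0 + ∑ i : Fin m, (ε i.succ * δ i.succ) • n i.succ)
          = x0 + ∑ i : Fin m, (ε i.succ * δ i.succ) • n i.succ - δ 0 • n 0 := by
        rw [h]
        module
      rw [this]
      exact hy.2

end Vale.Agent.Lib.P243.Bang
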