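import Mathlib

/-!
P243 (B), step E1: Bang's lemma.
Choose the signs `ε` maximising `‖∑ ε_i δ_i n_i‖² - 2 ∑ ε_i δ_i c_i` (finitely many choices).  Flipping the
sign `ε_k` does not increase this quantity, which gives `ε_k (⟨z, n_k⟩ - c_k) ≥ δ_k` for `z = ∑ ε_i δ_i n_i`
(when `δ_k > 0`; the case `δ_k = 0` is trivial).
-/

namespace Vale.Agent.Lib.P243.Bang

theorem bang_signs {E : Type*} [NormedAddCommGroup E] [InnerProductSpace ℝ E] {ι : Type*} [Fintype ι]
    (n : ι → E) (hn : ∀ i, ‖n i‖ = 1) (c δ : ι → ℝ) (hδ : ∀ i, 0 ≤ δ i) :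
    ∃ ε : ι → ℝ, (∀ i, ε i = 1 ∨ ε i = -1) ∧
      ∀ k, δ k ≤ |inner ℝ (∑ i, (ε i * δ i) • n i) (n k) - c k| := by
  classical
  obtain ⟨e, he⟩ : ∃ e : (ι → Bool) → ι → ℝ, ∀ s i, e s i = if s i then 1 else -1 :=
    ⟨fun s i => if s i then 1 else -1, fun _ _ => rfl⟩
  obtain ⟨s, hs⟩ := Finite.exists_max
    (fun s : ι → Bool => ‖∑ i, (e s i * δ i) • n i‖ ^ 2 - 2 * ∑ i, e s i * δ i * c i)
  have hsign : ∀ i, e s i = 1 ∨ e s i = -1 := by
    intro i
    rw [he]
    split_ifs
    · exact Or.inl rfl
    · exact Or.inr rfl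
  refine ⟨e s, hsign, fun k => ?_⟩
  have hflip := hs (Function.update s k (!s k))
  have hupd : ∀ i, e (Function.update s k (!s k)) i
      = e s i - (if i = k then 2 * e s k else 0) := by
    intro i
    by_cases hik : i = k
    · subst hik
      rw [he, he, Function.update_self, if_pos rfl]
      cases s i <;> norm_num
    · rw [he, he, Function.update_of_ne hik, if_neg hik, sub_zero]
  have hz : ∑ i, (e (Function.update s k (!s k)) i * δ i) • n i
      = ∑ i, (e s i * δ i) • n i - (2 * e s k * δ k) • n k := by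
    have h1 : ∀ i, (e (Function.update s k (!s k)) i * δ i) • n i
        = (e s i * δ i) • n i - (if i = k then (2 * e s k * δ k) • n k else 0) := by
      intro i
      rw [hupd]
      by_cases hik : i = k
      · subst hik
        rw [if_pos rfl, if_pos rfl, sub_mul, sub_smul]
      · rw [if_neg hik, if_neg hik, sub_zero, sub_zero]
    rw [Finset.sum_congr rfl (fun i _ => h1 i), Finset.sum_sub_distrib,
      Finset.sum_ite_eq' Finset.univ k, if_pos (Finset.mem_univ k)]
  have hc : ∑ i, e (Function.update s k (!s k)) i * δ i * c i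
      = ∑ i, e s i * δ i * c i - 2 * e s k * δ k * c k := by
    have h1 : ∀ i, e (Function.update s k (!s k)) i * δ i * c i
        = e s i * δ i * c i - (if i = k then 2 * e s k * δ k * c k else 0) := by
      intro i
      rw [hupd]
      by_cases hik : i = k
      · subst hik
        rw [if_pos rfl, if_pos rfl]
        ring
      · rw [if_neg hik, if_neg hik, sub_zero, sub_zero]
    rw [Finset.sum_congr rfl (fun i _ => h1 i), Finset.sum_sub_distrib,
      Finset.sum_ite_eq' Finset.univ k, if_pos (Finset.mem_univ k)]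
  have hsq : e s k * e s k = 1 := by
    rcases hsign k with h | h <;> rw [h] <;> norm_num
  simp only [hz, hc] at hflip
  set z := ∑ i, (e s i * δ i) • n i with hzdef
  rw [norm_sub_sq_real, inner_smul_right, norm_smul, hn k, mul_one, Real.norm_eq_abs, sq_abs]
    at hflip
  have hkey : δ k ^ 2 ≤ δ k * (e s k * (inner ℝ z (n k) - c k)) := by
    have h2 : (2 * e s k * δ k) ^ 2 = 4 * δ k ^ 2 := by
      calc (2 * e s k * δ k) ^ 2 = 4 * (e s k * e s k) * δ k ^ 2 := by ring
        _ = 4 * δ k ^ 2 := by rw [hsq, mul_one]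
    rw [h2] at hflip
    nlinarith
  have habs : e s k * (inner ℝ z (n k) - c k) ≤ |inner ℝ z (n k) - c k| := by
    rcases hsign k with h | h <;> rw [h]
    · rw [one_mul]
      exact le_abs_self _
    · rw [neg_one_mul]
      exact neg_le_abs _
  rcases (hδ k).eq_or_lt with h0 | h0
  · rw [← h0]
    exact abs_nonneg _
  · refine le_trans ?_ habs
    have : δ k * δ k ≤ δ k * (e s k * (inner ℝ z (n k) - c k)) := by
      rw [← sq]
      exact hkey
    exact le_of_mul_le_mul_left this h0

end Vale.Agent.Lib.P243.Bang
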