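import Mathlib
import Vale.Agent.Lib.P243.Bang.Signs
import Vale.Agent.Lib.P243.Bang.Center

/-!
P243 (B), step E4: Bang's plank theorem (half-widths `δ_i`).
If `2 ∑ δ_i < ω`, enlarge: `δ'_i = δ_i + η` with `2 ∑ δ'_i ≤ ω`, `η > 0`.  Take `x0` from `exists_center`
and signs from `bang_signs` applied to `c'_k = c_k - ⟨x0, n_k⟩`: the point `x0 + ∑ ε_i δ'_i n_i ∈ S` satisfies
`|⟨x, n_k⟩ - c_k| ≥ δ'_k > δ_k` for all `k`, contradicting the covering.
-/

namespace Vale.Agent.Lib.P243.Bang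

variable {E : Type*} [NormedAddCommGroup E] [InnerProductSpace ℝ E] [FiniteDimensional ℝ E]

theorem bang_plank (m : ℕ) {S : Set E} (hS : Convex ℝ S) (hc : IsCompact S) (hne : S.Nonempty)
    {ω : ℝ} (hω : ∀ θ : E, ‖θ‖ = 1 → ∃ x ∈ S, ∃ y ∈ S, ω ≤ inner ℝ (x - y) θ)
    (n : Fin m → E) (hn : ∀ i, ‖n i‖ = 1) (c δ : Fin m → ℝ) (hδ : ∀ i, 0 ≤ δ i)
    (hcov : ∀ x ∈ S, ∃ i, |inner ℝ x (n i) - c i| ≤ δ i) :
    ω ≤ 2 * ∑ i, δ i := by
  by_contra hlt
  push Not at hlt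
  -- `m` is positive, since `S` is nonempty and covered
  have hm : 0 < m := by
    obtain ⟨x, hx⟩ := hne
    obtain ⟨i, -⟩ := hcov x hx
    exact lt_of_le_of_lt (Nat.zero_le _) i.isLt
  have hm' : (0 : ℝ) < m := by exact_mod_cast hm
  -- the enlargement
  set η : ℝ := (ω - 2 * ∑ i, δ i) / (2 * m) with hη
  have hηpos : 0 < η := by
    apply div_pos
    · linarith
    · positivity
  set δ' : Fin m → ℝ := fun i => δ i + η with hδ'
  have hδ'0 : ∀ i, 0 ≤ δ' i := fun i => by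
    have := hδ i
    simp only [hδ']
    linarith
  have hsum : 2 * ∑ i, δ' i ≤ ω := by
    have h1 : ∑ i, δ' i = ∑ i, δ i + m * η := by
      simp [hδ', Finset.sum_add_distrib]
    have h2 : 2 * ((m : ℝ) * η) = ω - 2 * ∑ i, δ i := by
      rw [hη]
      field_simp
    rw [h1]
    linarith
  obtain ⟨x0, hx0⟩ := exists_center m hS hc hne hω n hn δ' hδ'0 hsum
  obtain ⟨ε, hε, hbig⟩ := bang_signs n hn (fun k => c k - inner ℝ x0 (n k)) δ' hδ'0
  obtain ⟨k, hk⟩ := hcov _ (hx0 ε hε)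
  have h3 := hbig k
  have h4 : inner ℝ (x0 + ∑ i, (ε i * δ' i) • n i) (n k) - c k
      = inner ℝ (∑ i, (ε i * δ' i) • n i) (n k) - (c k - inner ℝ x0 (n k)) := by
    rw [inner_add_left]
    ring
  rw [h4] at hk
  have h5 : δ' k = δ k + η := rfl
  linarith

end Vale.Agent.Lib.P243.Bang
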