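import Mathlib
import Vale.Agent.Lib.P243.Bang.Plank

/-!
P243 (B), step E5: Bang's theorem for generalised planks `{x | ⟨x, n_i⟩ ∈ A_i}`, `A_i ⊆ ℝ` arbitrary
(Lebesgue outer measure).

Assume `∑ |A_i| < ω`.  Choose open `U_i ⊇ A_i` with `∑ |U_i| < ω` (`Set.exists_isOpen_lt_add`).  The open sets
`{x | ⟨x, n_i⟩ ∈ U_i}` cover the compact `S`; let `ρ > 0` be a Lebesgue number
(`lebesgue_number_lemma_of_metric`): every `x ∈ S` has an `i` with `ball x ρ ⊆ {⟨·, n_i⟩ ∈ U_i}`, hence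
`Ioo (⟨x,n_i⟩ - ρ) (⟨x,n_i⟩ + ρ) ⊆ U_i` (move along `n_i`).  Fix a mesh `η < ρ`; for each `i` let `Z_i` be the finite
set of integers `k` with `Ico (kη) ((k+1)η) ⊆ U_i` and `|kη| ≤` a bound for `S` plus `η`.  The cells are disjoint, so
`η #Z_i ≤ |U_i|`; the closed planks `{|⟨x,n_i⟩ - (k+1/2)η| ≤ η/2}`, `k ∈ Z_i`, cover `S`; apply `bang_plank` to this
finite family (reindex by `Fin`).
-/

namespace Vale.Agent.Lib.P243.Bang

open MeasureTheory

variable {E : Type*} [NormedAddCommGroup E] [InnerProductSpace ℝ E] [FiniteDimensional ℝ E]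

/-- `bang_plank` for an arbitrary finite index type. -/
theorem bang_plank_fintype {ι : Type*} [Fintype ι] {S : Set E} (hS : Convex ℝ S) (hc : IsCompact S)
    (hne : S.Nonempty) {ω : ℝ}
    (hω : ∀ θ : E, ‖θ‖ = 1 → ∃ x ∈ S, ∃ y ∈ S, ω ≤ inner ℝ (x - y) θ)
    (n : ι → E) (hn : ∀ i, ‖n i‖ = 1) (c δ : ι → ℝ) (hδ : ∀ i, 0 ≤ δ i)
    (hcov : ∀ x ∈ S, ∃ i, |inner ℝ x (n i) - c i| ≤ δ i) :
    ω ≤ 2 * ∑ i, δ i := by
  classical
  let e := Fintype.equivFin ι
  have h := bang_plank (Fintype.card ι) hS hc hne hω (fun j => n (e.symm j))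
    (fun j => hn (e.symm j)) (fun j => c (e.symm j)) (fun j => δ (e.symm j))
    (fun j => hδ (e.symm j)) (by
      intro x hx
      obtain ⟨i, hi⟩ := hcov x hx
      refine ⟨e i, ?_⟩
      simp only [Equiv.symm_apply_apply]
      exact hi)
  rw [Equiv.sum_comp e.symm δ] at h
  exact h

/-- The cells of the grid of mesh `η`. -/
private def cell (η : ℝ) (k : ℤ) : Set ℝ := Set.Ico ((k : ℝ) * η) (((k : ℝ) + 1) * η)

private lemma cell_disjoint {η : ℝ} (hη : 0 < η) {k k' : ℤ} (h : k ≠ k') :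
    Disjoint (cell η k) (cell η k') := by
  rw [Set.disjoint_left]
  intro t ht ht'
  obtain ⟨h1, h2⟩ := ht
  obtain ⟨h3, h4⟩ := ht'
  rcases lt_or_gt_of_ne h with hlt | hlt
  · have h5 : (k : ℝ) + 1 ≤ k' := by exact_mod_cast hlt
    nlinarith
  · have h5 : (k' : ℝ) + 1 ≤ k := by exact_mod_cast hlt
    nlinarith

private lemma sum_cells_le {η : ℝ} (hη : 0 < η) (U : Set ℝ) (Z : Finset ℤ)
    (hZ : ∀ k ∈ Z, cell η k ⊆ U) : ENNReal.ofReal ((Z.card : ℝ) * η) ≤ volume U := by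
  have h1 : volume (⋃ k ∈ Z, cell η k) = ∑ k ∈ Z, volume (cell η k) :=
    measure_biUnion_finset (fun k _ k' _ h => cell_disjoint hη h) (fun k _ => measurableSet_Ico)
  have h2 : ∀ k, volume (cell η k) = ENNReal.ofReal η := by
    intro k
    unfold cell
    rw [Real.volume_Ico]
    congr 1
    ring
  calc ENNReal.ofReal ((Z.card : ℝ) * η) = ∑ k ∈ Z, volume (cell η k) := by
        simp_rw [h2]
        rw [Finset.sum_const, nsmul_eq_mul, ENNReal.ofReal_mul (by positivity),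
          ENNReal.ofReal_natCast]
    _ = volume (⋃ k ∈ Z, cell η k) := h1.symm
    _ ≤ volume U := measure_mono (Set.iUnion₂_subset hZ)

omit [FiniteDimensional ℝ E] in
/-- If a ball around `x` lies in the generalised plank, an interval lies in `U`. -/
private lemma interval_subset {x ν : E} (hν : ‖ν‖ = 1) {U : Set ℝ} {ρ : ℝ}
    (h : Metric.ball x ρ ⊆ {y : E | inner ℝ y ν ∈ U}) {s : ℝ}
    (hs : |s - inner ℝ x ν| < ρ) : s ∈ U := by
  have h1 : x + (s - inner ℝ x ν) • ν ∈ Metric.ball x ρ := by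
    rw [Metric.mem_ball, dist_eq_norm, add_sub_cancel_left, norm_smul, hν, mul_one,
      Real.norm_eq_abs]
    exact hs
  have h2 : inner ℝ (x + (s - inner ℝ x ν) • ν) ν ∈ U := h h1
  have h3 : inner ℝ (x + (s - inner ℝ x ν) • ν) ν = s := by
    rw [inner_add_left, inner_smul_left, real_inner_self_eq_norm_sq, hν]
    simp
  rw [h3] at h2
  exact h2

/-- Location of a real number in the grid. -/
private lemma grid_locate {η R t : ℝ} (hη : 0 < η) (ht : |t| ≤ R) :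
    ∃ k : ℤ, k ∈ Finset.Icc (-(⌈R / η⌉ + 1)) (⌈R / η⌉ + 1) ∧ (k : ℝ) * η ≤ t ∧
      t < ((k : ℝ) + 1) * η := by
  refine ⟨⌊t / η⌋, ?_, ?_, ?_⟩
  · have h1 : ((⌊t / η⌋ : ℤ) : ℝ) ≤ t / η := Int.floor_le _
    have h2 : t / η < ((⌊t / η⌋ : ℤ) : ℝ) + 1 := Int.lt_floor_add_one _
    have h3 : R / η ≤ ((⌈R / η⌉ : ℤ) : ℝ) := Int.le_ceil _
    have h4 : t / η ≤ R / η := by
      gcongr
      exact (le_abs_self t).trans ht
    have h5 : -(R / η) ≤ t / η := by
      rw [← neg_div]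
      gcongr
      linarith [neg_abs_le t]
    rw [Finset.mem_Icc]
    constructor
    · have : (-(((⌈R / η⌉ : ℤ) : ℝ) + 1)) ≤ ((⌊t / η⌋ : ℤ) : ℝ) := by linarith
      exact_mod_cast this
    · have : ((⌊t / η⌋ : ℤ) : ℝ) ≤ ((⌈R / η⌉ : ℤ) : ℝ) + 1 := by linarith
      exact_mod_cast this
  · have h1 : ((⌊t / η⌋ : ℤ) : ℝ) ≤ t / η := Int.floor_le _
    rwa [le_div_iff₀ hη] at h1
  · have h2 : t / η < ((⌊t / η⌋ : ℤ) : ℝ) + 1 := Int.lt_floor_add_one _
    rwa [div_lt_iff₀ hη] at h2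

/-- Bang's theorem for generalised planks given by open sets. -/
private theorem bang_open (m : ℕ) {S : Set E} (hS : Convex ℝ S) (hc : IsCompact S)
    (hne : S.Nonempty)
    {ω : ℝ} (hω : ∀ θ : E, ‖θ‖ = 1 → ∃ x ∈ S, ∃ y ∈ S, ω ≤ inner ℝ (x - y) θ)
    (n : Fin m → E) (hn : ∀ i, ‖n i‖ = 1) (U : Fin m → Set ℝ) (hU : ∀ i, IsOpen (U i))
    (hcov : ∀ x ∈ S, ∃ i, inner ℝ x (n i) ∈ U i) :
    ENNReal.ofReal ω ≤ ∑ i, volume (U i) := by
  classical
  have hopen : ∀ i, IsOpen {x : E | inner ℝ x (n i) ∈ U i} := fun i =>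
    (hU i).preimage (by fun_prop)
  have hsub : S ⊆ ⋃ i, {x : E | inner ℝ x (n i) ∈ U i} := by
    intro x hx
    obtain ⟨i, hi⟩ := hcov x hx
    exact Set.mem_iUnion.2 ⟨i, hi⟩
  obtain ⟨ρ, hρ, hleb⟩ := lebesgue_number_lemma_of_metric hc hopen hsub
  obtain ⟨R, hR⟩ := hc.isBounded.exists_norm_le
  set η : ℝ := ρ / 2 with hηdef
  have hη : 0 < η := by positivity
  set I : Finset ℤ := Finset.Icc (-(⌈R / η⌉ + 1)) (⌈R / η⌉ + 1) with hI
  have key : ∀ x ∈ S, ∃ i, ∃ k ∈ I, cell η k ⊆ U i ∧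
      |inner ℝ x (n i) - ((k : ℝ) + 1 / 2) * η| ≤ η / 2 := by
    intro x hx
    obtain ⟨i, hi⟩ := hleb x hx
    have hb : |inner ℝ x (n i)| ≤ R := by
      have h1 := abs_real_inner_le_norm x (n i)
      rw [hn i, mul_one] at h1
      exact h1.trans (hR x hx)
    obtain ⟨k, hk, h1, h2⟩ := grid_locate hη hb
    refine ⟨i, k, hk, ?_, ?_⟩
    · intro s hs
      obtain ⟨h3, h4⟩ := hs
      refine interval_subset (hn i) hi ?_
      rw [abs_lt]
      constructor <;> nlinarith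
    · rw [abs_le]
      constructor <;> nlinarith
  have hb := bang_plank_fintype (ι := Fin m × {k : ℤ // k ∈ I}) hS hc hne hω
    (fun p => n p.1) (fun p => hn p.1) (fun p => ((p.2.1 : ℝ) + 1 / 2) * η)
    (fun p => if cell η p.2.1 ⊆ U p.1 then η / 2 else 0)
    (by
      intro p
      split_ifs
      · positivity
      · exact le_rfl)
    (by
      intro x hx
      obtain ⟨i, k, hk, h1, h2⟩ := key x hx
      refine ⟨(i, ⟨k, hk⟩), ?_⟩
      simp only
      rw [if_pos h1]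
      exact h2)
  have hsum : ∀ i : Fin m, ∑ k : {k : ℤ // k ∈ I}, (if cell η k.1 ⊆ U i then η / 2 else 0) =
      (((I.filter (fun k => cell η k ⊆ U i)).card : ℝ) * η) / 2 := by
    intro i
    rw [Finset.sum_coe_sort I (fun k => if cell η k ⊆ U i then η / 2 else 0),
      ← Finset.sum_filter, Finset.sum_const, nsmul_eq_mul]
    ring
  rw [Fintype.sum_prod_type] at hb
  simp only [hsum] at hb
  have hb2 : ω ≤ ∑ i : Fin m, ((I.filter (fun k => cell η k ⊆ U i)).card : ℝ) * η := by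
    rw [← Finset.sum_div] at hb
    linarith
  calc ENNReal.ofReal ω
      ≤ ENNReal.ofReal (∑ i : Fin m, ((I.filter (fun k => cell η k ⊆ U i)).card : ℝ) * η) :=
        ENNReal.ofReal_le_ofReal hb2
    _ = ∑ i : Fin m, ENNReal.ofReal (((I.filter (fun k => cell η k ⊆ U i)).card : ℝ) * η) :=
        ENNReal.ofReal_sum_of_nonneg (fun i _ => by positivity)
    _ ≤ ∑ i, volume (U i) := by
        refine Finset.sum_le_sum fun i _ => ?_
        exact sum_cells_le hη (U i) _ (fun k hk => (Finset.mem_filter.1 hk).2)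

theorem bang_general (m : ℕ) {S : Set E} (hS : Convex ℝ S) (hc : IsCompact S) (hne : S.Nonempty)
    {ω : ℝ} (hω : ∀ θ : E, ‖θ‖ = 1 → ∃ x ∈ S, ∃ y ∈ S, ω ≤ inner ℝ (x - y) θ)
    (n : Fin m → E) (hn : ∀ i, ‖n i‖ = 1) (A : Fin m → Set ℝ)
    (hcov : ∀ x ∈ S, ∃ i, inner ℝ x (n i) ∈ A i) :
    ENNReal.ofReal ω ≤ ∑ i, volume (A i) := by
  refine ENNReal.le_of_forall_pos_le_add fun ε hε _ => ?_
  set ε' : ENNReal := (ε : ENNReal) / ((m : ENNReal) + 1) with hε'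
  have hm0 : (m : ENNReal) + 1 ≠ 0 := by simp
  have hmt : (m : ENNReal) + 1 ≠ ⊤ := by simp
  have hε'0 : ε' ≠ 0 := by
    rw [hε']
    exact ENNReal.div_ne_zero.2 ⟨by exact_mod_cast hε.ne', hmt⟩
  have hex : ∀ i, ∃ U ⊇ A i, IsOpen U ∧ volume U ≤ volume (A i) + ε' := fun i =>
    (A i).exists_isOpen_le_add volume hε'0
  choose U hUA hUo hUv using hex
  have h1 := bang_open m hS hc hne hω n hn U hUo (fun x hx => by
    obtain ⟨i, hi⟩ := hcov x hx
    exact ⟨i, hUA i hi⟩)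
  calc ENNReal.ofReal ω ≤ ∑ i, volume (U i) := h1
    _ ≤ ∑ i, (volume (A i) + ε') := Finset.sum_le_sum fun i _ => hUv i
    _ = ∑ i, volume (A i) + (m : ENNReal) * ε' := by
        rw [Finset.sum_add_distrib, Finset.sum_const, Finset.card_univ, Fintype.card_fin,
          nsmul_eq_mul]
    _ ≤ ∑ i, volume (A i) + ((m : ENNReal) + 1) * ε' := by
        gcongr
        exact le_self_add
    _ = ∑ i, volume (A i) + ε := by
        rw [hε', ENNReal.mul_div_cancel hm0 hmt]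

end Vale.Agent.Lib.P243.Bang
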